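import Mathlib
import Vale.Agent.Lib.Helper7.ConnectedCover

/-!
# P034: integral versus fractional expectation thresholds for supports of bounded degree

Conventions of the problem: `X` is a finite set, `F` a family of subsets of `X`.
A family `G` covers `F` if every member of `F` contains a member of `G`; its cost at `p` is
`∑ S ∈ G, p ^ |S|` (with `p ^ 0 = 1`).  A fractional cover is `g : 2^X → [0,1]` with
`∑_{S ⊆ H} g S ≥ 1` for every `H ∈ F`; its cost at `p` is `∑_{S ⊆ X} g S * p ^ |S|`.

Main result: if a fractional cover `g` of `F` has cost at most `1/2` at `p` and every element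
of `X` lies in at most `D` sets of the support of `g` (the sets may have arbitrary sizes),
then `F` has a cover of cost at most `1/2` at `p / (2100 D)`.
-/

namespace Vale.Agent.Results.P034.BoundedDegreeSupports

open Finset

variable {X : Type} [Fintype X] [DecidableEq X]

/-- `G` covers `F`: every member of `F` contains a member of `G`. -/
def Covers (G F : Finset (Finset X)) : Prop := ∀ H ∈ F, ∃ S ∈ G, S ⊆ H

/-- The cost at `p` of a family `G`: the sum of `p ^ |S|` over `S ∈ G`. -/
noncomputable def cost (p : ℝ) (G : Finset (Finset X)) : ℝ := ∑ S ∈ G, p ^ S.card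

/-- `g` is a fractional cover of `F`: values in `[0,1]` and `∑_{S ⊆ H} g S ≥ 1` for `H ∈ F`. -/
def IsFracCover (g : Finset X → ℝ) (F : Finset (Finset X)) : Prop :=
  (∀ S, 0 ≤ g S ∧ g S ≤ 1) ∧ ∀ H ∈ F, 1 ≤ ∑ S ∈ H.powerset, g S

/-- The cost at `p` of a fractional cover: the sum of `g S * p ^ |S|` over all `S ⊆ X`. -/
noncomputable def fracCost (p : ℝ) (g : Finset X → ℝ) : ℝ := ∑ S : Finset X, g S * p ^ S.card

/-- **Fractional covers of bounded degree.**  Let `F` be a family of subsets of a finite set
`X`, let `p ∈ [0,1]`, and let `g` be a fractional cover of `F` of cost at most `1/2` at `p`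
such that every element `x` of `X` lies in at most `D` sets `S` with `g S ≠ 0` (`D ≥ 1`).
Then some family `G` covers `F` with cost at most `1/2` at `p / (2100 D)`. -/
theorem result (F : Finset (Finset X)) (p : ℝ) (hp0 : 0 ≤ p) (hp1 : p ≤ 1)
    (g : Finset X → ℝ) (hg : IsFracCover g F) (D : ℕ) (hD : 1 ≤ D)
    (hdeg : ∀ x : X, (Finset.univ.filter (fun S : Finset X => g S ≠ 0 ∧ x ∈ S)).card ≤ D)
    (hcost : fracCost p g ≤ 1 / 2) :
    ∃ G : Finset (Finset X), Covers G F ∧ cost (p / (2100 * D)) G ≤ 1 / 2 := by
  classical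
  let L : Finset (Finset X) := Finset.univ.filter (fun S : Finset X => g S ≠ 0)
  have hL : ∀ S, S ∈ L ↔ g S ≠ 0 := by
    intro S
    simp [L]
  have hdegL : ∀ a : X, (L.filter (fun T => a ∈ T)).card ≤ D := by
    intro a
    refine le_trans (Finset.card_le_card ?_) (hdeg a)
    intro T hT
    obtain ⟨hTL, haT⟩ := Finset.mem_filter.mp hT
    exact Finset.mem_filter.mpr ⟨Finset.mem_univ _, (hL T).mp hTL, haT⟩
  exact Vale.Agent.Lib.Helper7.ConnectedCover.connected_rounding F p hp0 hp1 g
    (fun S => (hg.1 S).1) hg.2 hcost L D hD hdegL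
    (fun S hgS hSne =>
      Vale.Agent.Lib.Helper7.ConnectedCover.lconn_of_mem ((hL S).mpr hgS) hSne)

end Vale.Agent.Results.P034.BoundedDegreeSupports
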