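import Mathlib
import Vale.Agent.Lib.Helper7.ConnectedCover

/-!
# P034: integral versus fractional expectation thresholds for connected supports

Conventions of the problem: `X` is a finite set, `F` a family of subsets of `X`.
A family `G` covers `F` if every member of `F` contains a member of `G`; its cost at `p` is
`∑ S ∈ G, p ^ |S|` (with `p ^ 0 = 1`).  A fractional cover is `g : 2^X → [0,1]` with
`∑_{S ⊆ H} g S ≥ 1` for every `H ∈ F`; its cost at `p` is `∑_{S ⊆ X} g S * p ^ |S|`.

Main result: let `Γ` be a graph on `X` of maximum degree at most `Δ`.  If a fractional cover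
`g` of `F` has cost at most `1/2` at `p` and every nonempty set of its support induces a
connected subgraph of `Γ` (the sets may have arbitrary sizes, and a point may lie in
arbitrarily many of them), then `F` has a cover of cost at most `1/2` at `p / (2100 Δ)`.
-/

namespace Vale.Agent.Results.P034.ConnectedSupports

open Finset

variable {X : Type} [Fintype X] [DecidableEq X]

/-- `G` covers `F`: every member of `F` contains a member of `G`. -/
def Covers (G F : Finset (Finset X)) : Prop := ∀ H ∈ F, ∃ S ∈ G, S ⊆ H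

/-- The cost at `p` of a family `G`: the sum of `p ^ |S|` over `S ∈ G`. -/
noncomputable def cost (p : ℝ) (G : Finset (Finset X)) : ℝ := ∑ S ∈ G, p ^ S.card

/-- `g` is a fractional cover of `F`: values in `[0,1]` and `∑_{S ⊆ H} g S ≥ 1` for `H ∈ F`. -/
def IsFracCover (g : Finset X → ℝ) (F : Finset (Finset X)) : Prop :=
  (∀ S, 0 ≤ g S ∧ g S ≤ 1) ∧ ∀ H ∈ F, 1 ≤ ∑ S ∈ H.powerset, g S

/-- The cost at `p` of a fractional cover: the sum of `g S * p ^ |S|` over all `S ⊆ X`. -/
noncomputable def fracCost (p : ℝ) (g : Finset X → ℝ) : ℝ := ∑ S : Finset X, g S * p ^ S.card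

/-- **Fractional covers with connected support.**  Let `Γ` be a graph on the finite set `X`
in which every vertex has degree at most `Δ` (`Δ ≥ 1`), let `F` be a family of subsets of
`X`, `p ∈ [0,1]`, and let `g` be a fractional cover of `F` of cost at most `1/2` at `p` such
that every nonempty set `S` with `g S ≠ 0` induces a connected subgraph of `Γ`.
Then some family `G` covers `F` with cost at most `1/2` at `p / (2100 Δ)`. -/
theorem result (Γ : SimpleGraph X) [DecidableRel Γ.Adj] (Δ : ℕ) (hΔ1 : 1 ≤ Δ)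
    (hΔ : ∀ v : X, Γ.degree v ≤ Δ)
    (F : Finset (Finset X)) (p : ℝ) (hp0 : 0 ≤ p) (hp1 : p ≤ 1)
    (g : Finset X → ℝ) (hg : IsFracCover g F)
    (hconn : ∀ S : Finset X, g S ≠ 0 → S.Nonempty → (Γ.induce (S : Set X)).Connected)
    (hcost : fracCost p g ≤ 1 / 2) :
    ∃ G : Finset (Finset X), Covers G F ∧ cost (p / (2100 * Δ)) G ≤ 1 / 2 := by
  classical
  -- the edges of the graph as two-element sets
  let L : Finset (Finset X) :=
    Finset.univ.filter (fun T : Finset X => ∃ u v : X, Γ.Adj u v ∧ T = {u, v})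
  have hL : ∀ T, T ∈ L ↔ ∃ u v : X, Γ.Adj u v ∧ T = {u, v} := by
    intro T
    simp [L]
  have hdegL : ∀ a : X, (L.filter (fun T => a ∈ T)).card ≤ Δ := by
    intro a
    have hsub : L.filter (fun T => a ∈ T) ⊆ (Γ.neighborFinset a).image (fun v => {a, v}) := by
      intro T hT
      obtain ⟨hTL, haT⟩ := Finset.mem_filter.mp hT
      obtain ⟨u, v, huv, rfl⟩ := (hL T).mp hTL
      rw [Finset.mem_image]
      rw [Finset.mem_insert, Finset.mem_singleton] at haT
      rcases haT with rfl | rfl
      · exact ⟨v, (Γ.mem_neighborFinset _ _).mpr huv, rfl⟩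
      · exact ⟨u, (Γ.mem_neighborFinset _ _).mpr huv.symm, Finset.pair_comm _ _⟩
    calc (L.filter (fun T => a ∈ T)).card
        ≤ ((Γ.neighborFinset a).image (fun v => {a, v})).card := Finset.card_le_card hsub
      _ ≤ (Γ.neighborFinset a).card := Finset.card_image_le
      _ = Γ.degree a := rfl
      _ ≤ Δ := hΔ a
  have hlconn : ∀ S : Finset X, g S ≠ 0 → S.Nonempty →
      Vale.Agent.Lib.Helper7.ConnectedCover.LConn L S := by
    intro S hgS hSne
    refine ⟨hSne, ?_⟩
    intro R' hR' hlt
    obtain ⟨a, haR'⟩ := hR'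
    obtain ⟨b, hbS, hbR'⟩ := Finset.exists_of_ssubset hlt
    have haS : a ∈ S := hlt.1 haR'
    have hc := hconn S hgS hSne
    obtain ⟨w⟩ := hc.preconnected ⟨a, Finset.mem_coe.mpr haS⟩ ⟨b, Finset.mem_coe.mpr hbS⟩
    obtain ⟨d, _, hd1, hd2⟩ := w.exists_boundary_dart {z | z.1 ∈ R'} haR' hbR'
    have hadj : Γ.Adj d.fst.1 d.snd.1 := SimpleGraph.induce_adj.mp d.adj
    refine ⟨{d.fst.1, d.snd.1}, (hL _).mpr ⟨_, _, hadj, rfl⟩, ?_, ?_, ?_⟩
    · intro z hz
      rw [Finset.mem_insert, Finset.mem_singleton] at hz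
      rcases hz with rfl | rfl
      · exact Finset.mem_coe.mp d.fst.2
      · exact Finset.mem_coe.mp d.snd.2
    · exact Finset.not_disjoint_iff.mpr ⟨d.fst.1, Finset.mem_insert_self _ _, hd1⟩
    · intro h
      exact hd2 (h (Finset.mem_insert_of_mem (Finset.mem_singleton_self _)))
  exact Vale.Agent.Lib.Helper7.ConnectedCover.connected_rounding F p hp0 hp1 g
    (fun S => (hg.1 S).1) hg.2 hcost L Δ hΔ1 hdegL hlconn

end Vale.Agent.Results.P034.ConnectedSupports
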