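import Mathlib
import Vale.Agent.Lib.Helper7.LaminarCover

/-!
# P034: integral versus fractional expectation thresholds for laminar fractional covers

Conventions of the problem: `X` is a finite set, `F` a family of subsets of `X`.
A family `G` covers `F` if every member of `F` contains a member of `G`; its cost at `p` is
`∑ S ∈ G, p ^ |S|` (with `p ^ 0 = 1`).  A fractional cover is `g : 2^X → [0,1]` with
`∑_{S ⊆ H} g S ≥ 1` for every `H ∈ F`; its cost at `p` is `∑_{S ⊆ X} g S * p ^ |S|`.

Main result: if a fractional cover `g` of `F` has cost at most `1/2` at `p` and its support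
is a laminar family (any two sets `S, T` with `g S ≠ 0`, `g T ≠ 0` are nested or disjoint;
the sets may have arbitrary sizes), then `F` has a cover of cost at most `1/2` at `p / 1400`.
-/

namespace Vale.Agent.Results.P034.LaminarSupports

open Finset

variable {X : Type} [Fintype X] [DecidableEq X]

/-- `G` covers `F`: every member of `F` contains a member of `G`. -/
def Covers (G F : Finset (Finset X)) : Prop := ∀ H ∈ F, ∃ S ∈ G, S ⊆ H

/-- The cost at `p` of a family `G`: the sum of `p ^ |S|` over `S ∈ G`. -/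
noncomputable def cost (p : ℝ) (G : Finset (Finset X)) : ℝ := ∑ S ∈ G, p ^ S.card

/-- `g` is a fractional cover of `F`: values in `[0,1]` and `∑_{S ⊆ H} g S ≥ 1` for `H ∈ F`. -/
def IsFracCover (g : Finset X → ℝ) (F : Finset (Finset X)) : Prop :=
  (∀ S, 0 ≤ g S ∧ g S ≤ 1) ∧ ∀ H ∈ F, 1 ≤ ∑ S ∈ H.powerset, g S

/-- The cost at `p` of a fractional cover: the sum of `g S * p ^ |S|` over all `S ⊆ X`. -/
noncomputable def fracCost (p : ℝ) (g : Finset X → ℝ) : ℝ := ∑ S : Finset X, g S * p ^ S.card

/-- In a family in which the supersets of `T` form a chain, the sum of `q ^ |S|` over the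
supersets `S` of `T` is at most `2 q ^ |T|` when `0 ≤ q ≤ 1/2`. -/
theorem chain_sum_le (I : Finset (Finset X)) (T : Finset X) (q : ℝ) (hq0 : 0 ≤ q)
    (hq1 : q ≤ 1 / 2)
    (hchain : ∀ S ∈ I, ∀ S' ∈ I, T ⊆ S → T ⊆ S' → S ⊆ S' ∨ S' ⊆ S) :
    ∑ S ∈ I.filter (fun S => T ⊆ S), q ^ S.card ≤ 2 * q ^ T.card := by
  classical
  set C := I.filter (fun S => T ⊆ S) with hC
  have hinj : ∀ S ∈ C, ∀ S' ∈ C, S.card - T.card = S'.card - T.card → S = S' := by
    intro S hS S' hS' hEq
    obtain ⟨hSI, hTS⟩ := Finset.mem_filter.mp hS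
    obtain ⟨hS'I, hTS'⟩ := Finset.mem_filter.mp hS'
    have c1 := Finset.card_le_card hTS
    have c2 := Finset.card_le_card hTS'
    have hcard : S.card = S'.card := by omega
    rcases hchain S hSI S' hS'I hTS hTS' with h | h
    · exact Finset.eq_of_subset_of_card_le h hcard.ge
    · exact (Finset.eq_of_subset_of_card_le h hcard.le).symm
  have h1 : ∑ S ∈ C, q ^ S.card
      = q ^ T.card * ∑ j ∈ C.image (fun S => S.card - T.card), q ^ j := by
    rw [Finset.sum_image hinj, Finset.mul_sum]
    apply Finset.sum_congr rfl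
    intro S hS
    have c1 := Finset.card_le_card (Finset.mem_filter.mp hS).2
    rw [← pow_add]
    congr 1
    omega
  have h2 : ∑ j ∈ C.image (fun S => S.card - T.card), q ^ j
      ≤ ∑ j ∈ Finset.range (Fintype.card X + 1), q ^ j := by
    apply Finset.sum_le_sum_of_subset_of_nonneg
    · intro j hj
      obtain ⟨S, hS, rfl⟩ := Finset.mem_image.mp hj
      rw [Finset.mem_range]
      have := Finset.card_le_univ S
      omega
    · intro j _ _
      positivity
  have h3 := Vale.Agent.Lib.Helper7.LaminarCover.geom_le_two q hq0 hq1 (Fintype.card X + 1)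
  have h4 : (0 : ℝ) ≤ q ^ (Fintype.card X + 1) := by positivity
  have h5 : (0 : ℝ) ≤ q ^ T.card := by positivity
  rw [h1]
  calc q ^ T.card * ∑ j ∈ C.image (fun S => S.card - T.card), q ^ j
      ≤ q ^ T.card * 2 := by
        apply mul_le_mul_of_nonneg_left _ h5
        linarith
    _ = 2 * q ^ T.card := by ring

/-- **Laminar fractional covers.**  Let `F` be a family of subsets of a finite set `X`, let
`p ∈ [0,1]`, and let `g` be a fractional cover of `F` of cost at most `1/2` at `p` whose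
support is laminar: any two sets `S, T` with `g S ≠ 0` and `g T ≠ 0` are nested or disjoint.
Then some family `G` covers `F` with cost at most `1/2` at `p / 1400`. -/
theorem result (F : Finset (Finset X)) (p : ℝ) (hp0 : 0 ≤ p) (hp1 : p ≤ 1)
    (g : Finset X → ℝ) (hg : IsFracCover g F)
    (hlam : ∀ S T : Finset X, g S ≠ 0 → g T ≠ 0 → S ⊆ T ∨ T ⊆ S ∨ Disjoint S T)
    (hcost : fracCost p g ≤ 1 / 2) :
    ∃ G : Finset (Finset X), Covers G F ∧ cost (p / 1400) G ≤ 1 / 2 := by
  classical
  have hg0 : ∀ S, 0 ≤ g S := fun S => (hg.1 S).1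
  set q : ℝ := p / 2 with hq
  have hq0 : 0 ≤ q := by positivity
  have hq1 : q ≤ 1 / 2 := by rw [hq]; linarith
  let I : Finset (Finset X) := Finset.univ.filter (fun S => g S ≠ 0 ∧ S.Nonempty)
  have hI : ∀ S, S ∈ I ↔ g S ≠ 0 ∧ S.Nonempty := by
    intro S
    simp [I]
  let π : Finset X → ℝ := fun S => q ^ S.card
  let W : Finset X → ℝ := fun S => ∑ T ∈ I.filter (fun T => T ⊆ S), g T
  have hπ0 : ∀ S, 0 ≤ π S := fun S => pow_nonneg hq0 _
  have hW0 : ∀ S, 0 ≤ W S := fun S => Finset.sum_nonneg (fun T _ => hg0 T)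
  have hchain : ∀ T ∈ I, ∀ S ∈ I, ∀ S' ∈ I, T ⊆ S → T ⊆ S' → S ⊆ S' ∨ S' ⊆ S := by
    intro T hT S hS S' hS' hTS hTS'
    rcases hlam S S' ((hI S).mp hS).1 ((hI S').mp hS').1 with h | h | h
    · exact Or.inl h
    · exact Or.inr h
    · exfalso
      obtain ⟨x, hx⟩ := ((hI T).mp hT).2
      exact Finset.disjoint_left.mp h (hTS hx) (hTS' hx)
  have hkey : ∑ S ∈ I, W S * π S ≤ 1 := by
    have h1 : ∑ S ∈ I, W S * π S
        = ∑ T ∈ I, g T * ∑ S ∈ I.filter (fun S => T ⊆ S), π S := by
      simp only [W, Finset.sum_filter, Finset.sum_mul, Finset.mul_sum, ite_mul, zero_mul,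
        mul_ite, mul_zero]
      exact Finset.sum_comm
    have h2 : ∀ T ∈ I, g T * ∑ S ∈ I.filter (fun S => T ⊆ S), π S ≤ g T * p ^ T.card := by
      intro T hT
      apply mul_le_mul_of_nonneg_left _ (hg0 T)
      have h3 := chain_sum_le I T q hq0 hq1 (hchain T hT)
      have hcard : 1 ≤ T.card := Finset.card_pos.mpr ((hI T).mp hT).2
      have h4 : q ^ T.card = p ^ T.card * (1 / 2 : ℝ) ^ T.card := by
        rw [hq, div_eq_mul_one_div, mul_pow]
      have h5 : (1 / 2 : ℝ) ^ T.card ≤ (1 / 2 : ℝ) ^ 1 :=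
        pow_le_pow_of_le_one (by norm_num) (by norm_num) hcard
      have h6 : (0 : ℝ) ≤ p ^ T.card := pow_nonneg hp0 _
      have h7 : p ^ T.card * (1 / 2 : ℝ) ^ T.card ≤ p ^ T.card * (1 / 2 : ℝ) ^ 1 :=
        mul_le_mul_of_nonneg_left h5 h6
      have h8 : ∑ S ∈ I.filter (fun S => T ⊆ S), π S
          = ∑ S ∈ I.filter (fun S => T ⊆ S), q ^ S.card := rfl
      rw [h8]
      linarith
    rw [h1]
    have h9 : ∑ T ∈ I, g T * p ^ T.card ≤ fracCost p g := by
      unfold fracCost
      apply Finset.sum_le_sum_of_subset_of_nonneg (Finset.subset_univ _)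
      intro T _ _
      exact mul_nonneg (hg0 T) (pow_nonneg hp0 _)
    linarith [Finset.sum_le_sum h2]
  obtain ⟨𝒥, hcov𝒥, hcost𝒥⟩ :=
    Vale.Agent.Lib.Helper7.LaminarCover.cover_of_weights I π W hπ0 hW0 hkey
  let PD : Finset (Finset X) → Prop :=
    fun J => J ⊆ I ∧ (J : Set (Finset X)).PairwiseDisjoint id
  refine ⟨(𝒥.filter PD).image (fun J => J.biUnion id), ?_, ?_⟩
  · -- coverage
    intro H hH
    let IH : Finset (Finset X) := I.filter (fun S => S ⊆ H)
    let A : Finset (Finset X) := IH.filter (fun S => ∀ S' ∈ IH, S ⊆ S' → S' = S)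
    have hAI : A ⊆ I := fun S hS => (Finset.mem_filter.mp (Finset.mem_filter.mp hS).1).1
    have hAH : ∀ S ∈ A, S ⊆ H :=
      fun S hS => (Finset.mem_filter.mp (Finset.mem_filter.mp hS).1).2
    have hApd : (A : Set (Finset X)).PairwiseDisjoint id := by
      intro S hS S' hS' hne
      have hS1 := Finset.mem_filter.mp (Finset.mem_coe.mp hS)
      have hS'1 := Finset.mem_filter.mp (Finset.mem_coe.mp hS')
      have hSI := hAI (Finset.mem_coe.mp hS)
      have hS'I := hAI (Finset.mem_coe.mp hS')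
      rcases hlam S S' ((hI S).mp hSI).1 ((hI S').mp hS'I).1 with h | h | h
      · exact absurd (hS1.2 S' hS'1.1 h).symm hne
      · exact absurd (hS'1.2 S hS1.1 h) hne
      · exact h
    have hg_empty : g ∅ ≤ 1 / 2 := by
      have h1 : g ∅ * p ^ (∅ : Finset X).card ≤ fracCost p g := by
        unfold fracCost
        exact Finset.single_le_sum (f := fun S => g S * p ^ S.card)
          (fun S _ => mul_nonneg (hg0 S) (pow_nonneg hp0 _)) (Finset.mem_univ ∅)
      simp at h1
      linarith
    have hIHsum : 1 / 2 ≤ ∑ T ∈ IH, g T := by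
      have h1 := hg.2 H hH
      have h2 : ∑ T ∈ H.powerset, g T ≤ ∑ T ∈ insert ∅ IH, g T := by
        rw [← Finset.sum_filter_ne_zero (s := H.powerset)]
        apply Finset.sum_le_sum_of_subset_of_nonneg
        · intro T hT
          obtain ⟨hTH, hgT⟩ := Finset.mem_filter.mp hT
          rw [Finset.mem_powerset] at hTH
          rw [Finset.mem_insert]
          by_cases hTe : T = ∅
          · exact Or.inl hTe
          · right
            exact Finset.mem_filter.mpr
              ⟨(hI T).mpr ⟨hgT, Finset.nonempty_iff_ne_empty.mpr hTe⟩, hTH⟩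
        · intro T _ _
          exact hg0 T
      have h3 : (∅ : Finset X) ∉ IH := by
        intro h
        have := ((hI ∅).mp (Finset.mem_filter.mp h).1).2
        simp at this
      rw [Finset.sum_insert h3] at h2
      linarith
    have hAw : 1 / 2 ≤ ∑ S ∈ A, W S := by
      refine le_trans hIHsum ?_
      refine le_trans ?_ (Vale.Agent.Lib.Helper7.LaminarCover.sum_biUnion_le_sum A
        (fun S => I.filter (fun T => T ⊆ S)) g hg0)
      apply Finset.sum_le_sum_of_subset_of_nonneg
      · intro T hT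
        obtain ⟨hTI, hTH⟩ := Finset.mem_filter.mp hT
        have hne : (IH.filter (fun S => T ⊆ S)).Nonempty :=
          ⟨T, Finset.mem_filter.mpr ⟨hT, Finset.Subset.refl T⟩⟩
        obtain ⟨S0, hS0, hmax⟩ :=
          Finset.exists_max_image (IH.filter (fun S => T ⊆ S)) Finset.card hne
        obtain ⟨hS0IH, hTS0⟩ := Finset.mem_filter.mp hS0
        rw [Finset.mem_biUnion]
        refine ⟨S0, ?_, Finset.mem_filter.mpr ⟨hTI, hTS0⟩⟩
        refine Finset.mem_filter.mpr ⟨hS0IH, ?_⟩
        intro S' hS' hsub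
        have := hmax S' (Finset.mem_filter.mpr ⟨hS', hTS0.trans hsub⟩)
        exact (Finset.eq_of_subset_of_card_le hsub this).symm
      · intro T _ _
        exact hg0 T
    obtain ⟨J, hJ𝒥, hJA⟩ := hcov𝒥 A hAI hAw
    refine ⟨J.biUnion id, ?_, ?_⟩
    · rw [Finset.mem_image]
      refine ⟨J, Finset.mem_filter.mpr ⟨hJ𝒥, hJA.trans hAI, ?_⟩, rfl⟩
      exact hApd.subset (Finset.coe_subset.mpr hJA)
    · intro x hx
      obtain ⟨S, hSJ, hxS⟩ := Finset.mem_biUnion.mp hx
      exact hAH S (hJA hSJ) hxS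
  · -- cost
    unfold cost
    have h1 : ∑ S ∈ (𝒥.filter PD).image (fun J => J.biUnion id), (p / 1400) ^ S.card
        ≤ ∑ J ∈ 𝒥.filter PD, (p / 1400) ^ (J.biUnion id).card := by
      rw [← Finset.biUnion_singleton]
      refine le_trans (Vale.Agent.Lib.Helper7.LaminarCover.sum_biUnion_le_sum _ _ _
        (fun S => by positivity)) ?_
      simp
    have h2 : ∀ J ∈ 𝒥.filter PD,
        (p / 1400) ^ (J.biUnion id).card ≤ ∏ S ∈ J, (π S / 700) := by
      intro J hJ
      obtain ⟨_, hJI, hJpd⟩ := Finset.mem_filter.mp hJ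
      rw [Finset.card_biUnion hJpd, ← Finset.prod_pow_eq_pow_sum]
      apply Finset.prod_le_prod
      · intro S _
        positivity
      · intro S hS
        have hcard : 1 ≤ S.card := Finset.card_pos.mpr ((hI S).mp (hJI hS)).2
        have h3 : (p / 1400) ^ S.card = q ^ S.card * (1 / 700 : ℝ) ^ S.card := by
          rw [hq, ← mul_pow]
          congr 1
          ring
        have h4 : (1 / 700 : ℝ) ^ S.card ≤ (1 / 700 : ℝ) ^ 1 :=
          pow_le_pow_of_le_one (by norm_num) (by norm_num) hcard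
        have h5 : (0 : ℝ) ≤ q ^ S.card := pow_nonneg hq0 _
        have h6 := mul_le_mul_of_nonneg_left h4 h5
        have h7 : π S / 700 = q ^ S.card * (1 / 700 : ℝ) ^ 1 := by
          simp only [π]
          ring
        rw [h7]
        simp only [id]
        rw [h3]
        exact h6
    calc ∑ S ∈ (𝒥.filter PD).image (fun J => J.biUnion id), (p / 1400) ^ S.card
        ≤ ∑ J ∈ 𝒥.filter PD, ∏ S ∈ J, (π S / 700) := le_trans h1 (Finset.sum_le_sum h2)
      _ ≤ ∑ J ∈ 𝒥, ∏ S ∈ J, (π S / 700) :=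
        Finset.sum_le_sum_of_subset_of_nonneg (Finset.filter_subset _ _)
          (fun J _ _ => Finset.prod_nonneg (fun S _ => div_nonneg (hπ0 S) (by norm_num)))
      _ ≤ 1 / 2 := hcost𝒥

end Vale.Agent.Results.P034.LaminarSupports
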