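import Vale.Agent.Results.P034.NestedIntersections
import Vale.Agent.Lib.P034G.Main
import Vale.Agent.Lib.P034G.BoundedDeg
import Vale.Agent.Lib.Helper2.P034Forest

/-!
# P034: integral versus fractional expectation thresholds for four classes of families

Conventions of the problem (definitions of the hand-in `NestedIntersections`): a family `G` covers
`F` if every member of `F` contains a member of `G`; its cost at `p` is `∑ S ∈ G, p ^ |S|`. A
fractional cover is `g : 2^X → [0,1]` with `∑_{S ⊆ H} g S ≥ 1` for every `H ∈ F`; its cost at `p`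
is `∑_{S ⊆ X} g S * p ^ |S|`.

The first three parts are the statement of the hand-in `NestedAndGraphFamilies`, word for word.

First part: if the minimal members of `F` have nested intersections, every fractional cover can
be rounded to a cover of at most the same cost at the same `p`.

Second to fourth part: let `H` be a graph on `Fin n` and `F` a family of sets of unordered pairs
such that every member of `F` contains the edge set of the image of `H` under some permutation of
the vertices and every such edge set is a member of `F` (for example all graphs containing a copy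
of `H`). If `F` has a fractional cover of cost at most `1/2` at `p`, it has a cover of cost at
most `1/2` at `p / K`, where `K = 2000` if `H` is a star forest (every edge has an endpoint whose
only neighbour is the other endpoint), `K = 178 * D` if every vertex of `H` has at most `D ≥ 1`
neighbours, and (fourth part, new) `K = 104` if `H` is a forest (an acyclic graph) and
`p ≥ 104 * (1 + Nat.log 2 n) / n`.
-/

namespace Vale.Agent.Results.P034.NestedAndForestGraphFamilies

open Vale.Agent.Results.P034.NestedIntersections (Covers cost IsFracCover fracCost)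

theorem result :
    (∀ (X : Type) [Fintype X] [DecidableEq X] (F : Finset (Finset X)),
      (∀ A B C : Finset X, Minimal (fun S => S ∈ F) A → Minimal (fun S => S ∈ F) B →
        Minimal (fun S => S ∈ F) C → A ∩ B ⊆ A ∩ C ∨ A ∩ C ⊆ A ∩ B) →
      ∀ p : ℝ, 0 ≤ p → p ≤ 1 → ∀ g : Finset X → ℝ, IsFracCover g F →
        ∃ G : Finset (Finset X), Covers G F ∧ cost p G ≤ fracCost p g) ∧
    (∀ (n : ℕ) (H : SimpleGraph (Fin n)), Vale.Agent.Lib.P064T.IsStarForest H →
      ∀ F : Finset (Finset (Sym2 (Fin n))),
        (∀ W ∈ F, ∃ σ : Equiv.Perm (Fin n),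
          (H.map σ.toEmbedding).edgeSet ⊆ (W : Set (Sym2 (Fin n)))) →
        (∀ σ : Equiv.Perm (Fin n), ∃ W ∈ F,
          (W : Set (Sym2 (Fin n))) = (H.map σ.toEmbedding).edgeSet) →
        ∀ p : ℝ, 0 ≤ p → ∀ g : Finset (Sym2 (Fin n)) → ℝ, IsFracCover g F →
          fracCost p g ≤ 1 / 2 →
          ∃ G : Finset (Finset (Sym2 (Fin n))), Covers G F ∧ cost (p / 2000) G ≤ 1 / 2) ∧
    (∀ (n : ℕ) (H : SimpleGraph (Fin n)) (D : ℕ), 1 ≤ D →
      (∀ v : Fin n, (H.neighborSet v).ncard ≤ D) →
      ∀ F : Finset (Finset (Sym2 (Fin n))),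
        (∀ W ∈ F, ∃ σ : Equiv.Perm (Fin n),
          (H.map σ.toEmbedding).edgeSet ⊆ (W : Set (Sym2 (Fin n)))) →
        (∀ σ : Equiv.Perm (Fin n), ∃ W ∈ F,
          (W : Set (Sym2 (Fin n))) = (H.map σ.toEmbedding).edgeSet) →
        ∀ p : ℝ, 0 ≤ p → ∀ g : Finset (Sym2 (Fin n)) → ℝ, IsFracCover g F →
          fracCost p g ≤ 1 / 2 →
          ∃ G : Finset (Finset (Sym2 (Fin n))),
            Covers G F ∧ cost (p / (178 * (D : ℝ))) G ≤ 1 / 2) ∧
    (∀ (n : ℕ) (H : SimpleGraph (Fin n)), H.IsAcyclic →
      ∀ F : Finset (Finset (Sym2 (Fin n))),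
        (∀ W ∈ F, ∃ σ : Equiv.Perm (Fin n),
          (H.map σ.toEmbedding).edgeSet ⊆ (W : Set (Sym2 (Fin n)))) →
        (∀ σ : Equiv.Perm (Fin n), ∃ W ∈ F,
          (W : Set (Sym2 (Fin n))) = (H.map σ.toEmbedding).edgeSet) →
        ∀ p : ℝ, 104 * (1 + (Nat.log 2 n : ℝ)) / (n : ℝ) ≤ p →
          ∀ g : Finset (Sym2 (Fin n)) → ℝ, IsFracCover g F →
          fracCost p g ≤ 1 / 2 →
          ∃ G : Finset (Finset (Sym2 (Fin n))), Covers G F ∧ cost (p / 104) G ≤ 1 / 2) :=
  ⟨fun _ _ _ F hnest p hp0 hp1 g hg =>
      Vale.Agent.Results.P034.NestedIntersections.result F hnest p hp0 hp1 g hg,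
    fun _ H hH F hF1 hF2 p hp0 g hg hcost =>
      Vale.Agent.Lib.P034G.star_forest_family H hH F hF1 hF2 p hp0 g hg hcost,
    fun _ H D hD1 hD F hF1 hF2 p hp0 g hg hcost =>
      Vale.Agent.Lib.P034G.bounded_degree_family H D hD1 hD F hF1 hF2 p hp0 g hg hcost,
    fun _ H hH F hF1 hF2 p hp g hg hcost =>
      Vale.Agent.Lib.Helper2.P034Forest.forest_family H hH F hF1 hF2 p hp g hg hcost⟩

end Vale.Agent.Results.P034.NestedAndForestGraphFamilies
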