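import Vale.Agent.Results.P034.NestedIntersections
import Vale.Agent.Lib.P034G.Main

/-!
# P034: integral versus fractional expectation thresholds for two classes of families

Conventions of the problem (definitions of the hand-in `NestedIntersections`): a family `G` covers
`F` if every member of `F` contains a member of `G`; its cost at `p` is `∑ S ∈ G, p ^ |S|`. A
fractional cover is `g : 2^X → [0,1]` with `∑_{S ⊆ H} g S ≥ 1` for every `H ∈ F`; its cost at `p`
is `∑_{S ⊆ X} g S * p ^ |S|`.

First part (the statement of the hand-in `NestedIntersections`): if the minimal members of `F`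
have nested intersections, every fractional cover can be rounded to a cover of at most the same
cost at the same `p`.

Second part: let `H` be a star forest on `Fin n` (every edge has an endpoint whose only neighbour
is the other endpoint) and `F` a family of sets of unordered pairs such that every member of `F`
contains the edge set of the image of `H` under some permutation of the vertices and every such
edge set is a member of `F` (for example all graphs containing a copy of `H`). If `F` has a
fractional cover of cost at most `1/2` at `p`, it has a cover of cost at most `1/2` at `p / 2000`.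
-/

namespace Vale.Agent.Results.P034.NestedAndStarForestFamilies

open Vale.Agent.Results.P034.NestedIntersections (Covers cost IsFracCover fracCost)

theorem result :
    (∀ (X : Type) [Fintype X] [DecidableEq X] (F : Finset (Finset X)),
      (∀ A B C : Finset X, Minimal (fun S => S ∈ F) A → Minimal (fun S => S ∈ F) B →
        Minimal (fun S => S ∈ F) C → A ∩ B ⊆ A ∩ C ∨ A ∩ C ⊆ A ∩ B) →
      ∀ p : ℝ, 0 ≤ p → p ≤ 1 → ∀ g : Finset X → ℝ, IsFracCover g F →
        ∃ G : Finset (Finset X), Covers G F ∧ cost p G ≤ fracCost p g) ∧
    (∀ (n : ℕ) (H : SimpleGraph (Fin n)), Vale.Agent.Lib.P064T.IsStarForest H →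
      ∀ F : Finset (Finset (Sym2 (Fin n))),
        (∀ W ∈ F, ∃ σ : Equiv.Perm (Fin n),
          (H.map σ.toEmbedding).edgeSet ⊆ (W : Set (Sym2 (Fin n)))) →
        (∀ σ : Equiv.Perm (Fin n), ∃ W ∈ F,
          (W : Set (Sym2 (Fin n))) = (H.map σ.toEmbedding).edgeSet) →
        ∀ p : ℝ, 0 ≤ p → ∀ g : Finset (Sym2 (Fin n)) → ℝ, IsFracCover g F →
          fracCost p g ≤ 1 / 2 →
          ∃ G : Finset (Finset (Sym2 (Fin n))), Covers G F ∧ cost (p / 2000) G ≤ 1 / 2) :=
  ⟨fun _ _ _ F hnest p hp0 hp1 g hg =>
      Vale.Agent.Results.P034.NestedIntersections.result F hnest p hp0 hp1 g hg,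
    fun _ H hH F hF1 hF2 p hp0 g hg hcost =>
      Vale.Agent.Lib.P034G.star_forest_family H hH F hF1 hF2 p hp0 g hg hcost⟩

end Vale.Agent.Results.P034.NestedAndStarForestFamilies
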