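import Mathlib

/-!
# P034: integral versus fractional expectation thresholds for families with nested intersections

Conventions of the problem: `X` is a finite set, `F` a family of subsets of `X`.
A family `G` covers `F` if every member of `F` contains a member of `G`; its cost at `p` is
`∑ S ∈ G, p ^ |S|` (with `p ^ 0 = 1`).  A fractional cover is `g : 2^X → [0,1]` with
`∑_{S ⊆ H} g S ≥ 1` for every `H ∈ F`; its cost at `p` is `∑_{S ⊆ X} g S * p ^ |S|`.

Main result: if the minimal members of `F` have nested intersections (for minimal members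
`A, B, C`, the sets `A ∩ B` and `A ∩ C` are comparable), then every fractional cover can be
rounded to a cover of at most the same cost at the same `p`.
-/

namespace Vale.Agent.Results.P034.NestedIntersections

open Finset MeasureTheory

variable {X : Type} [Fintype X] [DecidableEq X]

/-- `G` covers `F`: every member of `F` contains a member of `G`. -/
def Covers (G F : Finset (Finset X)) : Prop := ∀ H ∈ F, ∃ S ∈ G, S ⊆ H

/-- The cost at `p` of a family `G`: the sum of `p ^ |S|` over `S ∈ G`. -/
noncomputable def cost (p : ℝ) (G : Finset (Finset X)) : ℝ := ∑ S ∈ G, p ^ S.card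

/-- `g` is a fractional cover of `F`: values in `[0,1]` and `∑_{S ⊆ H} g S ≥ 1` for `H ∈ F`. -/
def IsFracCover (g : Finset X → ℝ) (F : Finset (Finset X)) : Prop :=
  (∀ S, 0 ≤ g S ∧ g S ≤ 1) ∧ ∀ H ∈ F, 1 ≤ ∑ S ∈ H.powerset, g S

/-- The cost at `p` of a fractional cover: the sum of `g S * p ^ |S|` over all `S ⊆ X`. -/
noncomputable def fracCost (p : ℝ) (g : Finset X → ℝ) : ℝ := ∑ S : Finset X, g S * p ^ S.card

omit [Fintype X] [DecidableEq X] in
theorem subset_of_comparable_of_card_le {T T' : Finset X} (h : T ⊆ T' ∨ T' ⊆ T)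
    (hc : T.card ≤ T'.card) : T ⊆ T' := by
  rcases h with h | h
  · exact h
  · exact (Finset.eq_of_subset_of_card_le h hc).symm.subset

/-- Threshold rounding for weights whose support is a chain inside every target set. -/
theorem rounding (M : Finset (Finset X)) (w c : Finset X → ℝ) (hw : ∀ T, 0 ≤ w T)
    (hc : ∀ T, 0 ≤ c T) (hcov : ∀ H ∈ M, 1 ≤ ∑ T ∈ H.powerset, w T)
    (hchain : ∀ H ∈ M, ∀ T T', w T ≠ 0 → w T' ≠ 0 → T ⊆ H → T' ⊆ H → T ⊆ T' ∨ T' ⊆ T) :
    ∃ G : Finset (Finset X), (∀ H ∈ M, ∃ T ∈ G, T ⊆ H) ∧ ∑ T ∈ G, c T ≤ ∑ T, w T * c T := by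
  classical
  let b : Finset X → ℝ := fun T => ∑ T' ∈ T.powerset, w T'
  let a : Finset X → ℝ := fun T => b T - w T
  have hab : ∀ T, a T ≤ b T := fun T => by simp only [a]; linarith [hw T]
  -- coverage
  have hcover : ∀ θ : ℝ, 0 < θ → θ ≤ 1 → ∀ H ∈ M, ∃ T, T ⊆ H ∧ a T < θ ∧ θ ≤ b T := by
    intro θ hθ0 hθ1 H hH
    let SH := H.powerset.filter (fun T => w T ≠ 0)
    have hsum : ∑ T ∈ SH, w T = ∑ T ∈ H.powerset, w T := Finset.sum_filter_ne_zero _
    have hne : SH.Nonempty := by
      by_contra h
      rw [Finset.not_nonempty_iff_eq_empty] at h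
      have h1 := hcov H hH
      rw [← hsum, h, Finset.sum_empty] at h1
      linarith
    let C := SH.filter (fun T => θ ≤ b T)
    have hCne : C.Nonempty := by
      obtain ⟨Tm, hTm, hmax⟩ := Finset.exists_max_image SH Finset.card hne
      refine ⟨Tm, ?_⟩
      have hTm' : Tm ⊆ H ∧ w Tm ≠ 0 := by
        simpa [SH] using hTm
      rw [Finset.mem_filter]
      refine ⟨hTm, ?_⟩
      have hbTm : b Tm = ∑ T ∈ H.powerset, w T := by
        apply Finset.sum_subset
        · intro T hT
          rw [Finset.mem_powerset] at hT ⊢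
          exact hT.trans hTm'.1
        · intro T hT hnT
          by_contra hwT
          rw [Finset.mem_powerset] at hT hnT
          have hTS : T ∈ SH := by simp [SH, hT, hwT]
          exact hnT (subset_of_comparable_of_card_le
            (hchain H hH T Tm hwT hTm'.2 hT hTm'.1) (hmax T hTS))
      rw [hbTm]
      linarith [hcov H hH]
    obtain ⟨Ts, hTs, hmin⟩ := Finset.exists_min_image C Finset.card hCne
    have hTs' : (Ts ⊆ H ∧ w Ts ≠ 0) ∧ θ ≤ b Ts := by
      simpa [C, SH] using hTs
    refine ⟨Ts, hTs'.1.1, ?_, hTs'.2⟩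
    by_contra hlt
    have hge : θ ≤ a Ts := le_of_not_gt hlt
    have haTs : a Ts = ∑ T ∈ Ts.ssubsets, w T := by
      simp only [a, b]
      have := Finset.add_sum_erase Ts.powerset w (Finset.mem_powerset_self Ts)
      rw [Finset.ssubsets]
      linarith
    let D := Ts.ssubsets.filter (fun T => w T ≠ 0)
    have hsumD : ∑ T ∈ D, w T = ∑ T ∈ Ts.ssubsets, w T := Finset.sum_filter_ne_zero _
    have hDne : D.Nonempty := by
      by_contra h
      rw [Finset.not_nonempty_iff_eq_empty] at h
      rw [haTs, ← hsumD, h, Finset.sum_empty] at hge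
      linarith
    obtain ⟨Tq, hTq, hmaxq⟩ := Finset.exists_max_image D Finset.card hDne
    have hTq' : Tq ⊂ Ts ∧ w Tq ≠ 0 := by
      simpa [D] using hTq
    have hTqH : Tq ⊆ H := hTq'.1.subset.trans hTs'.1.1
    have hbTq : b Tq = ∑ T ∈ Ts.ssubsets, w T := by
      apply Finset.sum_subset
      · intro T hT
        rw [Finset.mem_powerset] at hT
        rw [Finset.mem_ssubsets]
        exact lt_of_le_of_lt hT hTq'.1
      · intro T hT hnT
        by_contra hwT
        rw [Finset.mem_ssubsets] at hT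
        rw [Finset.mem_powerset] at hnT
        have hTD : T ∈ D := by simp [D, hT, hwT]
        exact hnT (subset_of_comparable_of_card_le
          (hchain H hH T Tq hwT hTq'.2 (hT.subset.trans hTs'.1.1) hTqH) (hmaxq T hTD))
    have hTqC : Tq ∈ C := by
      simp only [C, SH, Finset.mem_filter, Finset.mem_powerset]
      refine ⟨⟨hTqH, hTq'.2⟩, ?_⟩
      rw [hbTq, ← haTs]
      exact hge
    have h1 := hmin Tq hTqC
    have h2 := Finset.card_lt_card hTq'.1
    omega
  -- averaging over the threshold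
  have havg : ∃ θ ∈ Set.Ioc (0 : ℝ) 1,
      ∑ T, Set.indicator (Set.Ioc (a T) (b T)) (fun _ : ℝ => c T) θ ≤ ∑ T, w T * c T := by
    have hint : ∀ T, IntegrableOn (Set.indicator (Set.Ioc (a T) (b T)) (fun _ : ℝ => c T))
        (Set.Ioc (0 : ℝ) 1) volume := by
      intro T
      apply Integrable.indicator _ measurableSet_Ioc
      exact integrableOn_const (by simp)
    have hf : IntegrableOn
        (fun θ => ∑ T, Set.indicator (Set.Ioc (a T) (b T)) (fun _ : ℝ => c T) θ)
        (Set.Ioc (0 : ℝ) 1) volume :=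
      integrable_finsetSum _ (fun T _ => hint T)
    obtain ⟨θ, hθ, hle⟩ := exists_le_setAverage (μ := volume) (s := Set.Ioc (0 : ℝ) 1)
      (by simp) (by simp) hf
    refine ⟨θ, hθ, hle.trans ?_⟩
    rw [setAverage_eq, integral_finsetSum _ (fun T _ => hint T)]
    have hvol : (volume : Measure ℝ).real (Set.Ioc (0 : ℝ) 1) = 1 := by
      simp [Measure.real]
    rw [hvol, inv_one, one_smul]
    apply Finset.sum_le_sum
    intro T _
    rw [integral_indicator measurableSet_Ioc, setIntegral_const, smul_eq_mul]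
    apply mul_le_mul_of_nonneg_right _ (hc T)
    have h1 : (volume.restrict (Set.Ioc (0 : ℝ) 1)).real (Set.Ioc (a T) (b T))
        ≤ (volume : Measure ℝ).real (Set.Ioc (a T) (b T)) := by
      apply ENNReal.toReal_mono (by simp)
      exact Measure.restrict_apply_le _ _
    have h2 : (volume : Measure ℝ).real (Set.Ioc (a T) (b T)) = w T := by
      simp only [Measure.real, Real.volume_Ioc]
      rw [ENNReal.toReal_ofReal (by linarith [hab T])]
      simp only [a]
      ring
    linarith
  obtain ⟨θ, hθ, hle⟩ := havg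
  refine ⟨Finset.univ.filter (fun T => a T < θ ∧ θ ≤ b T), ?_, ?_⟩
  · intro H hH
    obtain ⟨T, hTH, h1, h2⟩ := hcover θ hθ.1 hθ.2 H hH
    exact ⟨T, by simp [h1, h2], hTH⟩
  · rw [Finset.sum_filter]
    refine le_trans (le_of_eq ?_) hle
    apply Finset.sum_congr rfl
    intro T _
    simp [Set.indicator, Set.mem_Ioc]

/-- **Families with nested intersections.**  Let `F` be a family of subsets of a finite set
`X` such that for any three minimal members `A, B, C` of `F` the sets `A ∩ B` and `A ∩ C` are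
comparable under inclusion.  Then for every `p ∈ [0,1]` and every fractional cover `g` of `F`
there is a family `G` covering `F` whose cost at `p` is at most the cost of `g` at `p`. -/
theorem result (F : Finset (Finset X))
    (hnest : ∀ A B C : Finset X, Minimal (fun S => S ∈ F) A → Minimal (fun S => S ∈ F) B →
      Minimal (fun S => S ∈ F) C → A ∩ B ⊆ A ∩ C ∨ A ∩ C ⊆ A ∩ B)
    (p : ℝ) (hp0 : 0 ≤ p) (hp1 : p ≤ 1) (g : Finset X → ℝ) (hg : IsFracCover g F) :
    ∃ G : Finset (Finset X), Covers G F ∧ cost p G ≤ fracCost p g := by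
  classical
  -- the minimal members
  let M : Finset (Finset X) := F.filter (fun A => Minimal (fun S => S ∈ F) A)
  have hM : ∀ A, A ∈ M ↔ Minimal (fun S => S ∈ F) A := by
    intro A
    simp only [M, Finset.mem_filter]
    exact ⟨fun h => h.2, fun h => ⟨h.1, h⟩⟩
  -- closure: intersection of the minimal members containing `S`
  let cl : Finset X → Finset X := fun S => (M.filter (fun A => S ⊆ A)).inf id
  have hcl_sub : ∀ S, S ⊆ cl S := by
    intro S
    apply Finset.le_inf
    intro A hA
    exact (Finset.mem_filter.mp hA).2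
  have hcl_le : ∀ S H, H ∈ M → S ⊆ H → cl S ⊆ H := by
    intro S H hH hSH
    exact Finset.inf_le (f := id) (Finset.mem_filter.mpr ⟨hH, hSH⟩)
  have hcl_eq : ∀ S H, H ∈ M → cl S ⊆ H → ∃ A ∈ M, cl S = H ∩ A := by
    intro S H hH hclH
    have hSH : S ⊆ H := (hcl_sub S).trans hclH
    have hne : (M.filter (fun A => S ⊆ A)).Nonempty := ⟨H, Finset.mem_filter.mpr ⟨hH, hSH⟩⟩
    obtain ⟨A0, hA0, hmin⟩ := Finset.exists_min_image (M.filter (fun A => S ⊆ A))
      (fun A => (H ∩ A).card) hne
    have hA0' := Finset.mem_filter.mp hA0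
    refine ⟨A0, hA0'.1, ?_⟩
    apply Finset.Subset.antisymm
    · exact Finset.subset_inter hclH (Finset.inf_le (f := id) hA0)
    · apply Finset.le_inf
      intro A hA
      have hA' := Finset.mem_filter.mp hA
      have hcomp := hnest H A0 A ((hM H).mp hH) ((hM A0).mp hA0'.1) ((hM A).mp hA'.1)
      have hsub : H ∩ A0 ⊆ H ∩ A := subset_of_comparable_of_card_le hcomp (hmin A hA)
      exact hsub.trans Finset.inter_subset_right
  -- pushed-up weights
  let w : Finset X → ℝ := fun T => ∑ S ∈ Finset.univ.filter (fun S => cl S = T), g S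
  have hw0 : ∀ T, 0 ≤ w T := fun T => Finset.sum_nonneg (fun S _ => (hg.1 S).1)
  have hwsupp : ∀ T, w T ≠ 0 → ∃ S, cl S = T := by
    intro T hT
    by_contra h
    apply hT
    apply Finset.sum_eq_zero
    intro S hS
    exact absurd ⟨S, (Finset.mem_filter.mp hS).2⟩ h
  have hMF : ∀ H ∈ M, H ∈ F := fun H hH => (Finset.mem_filter.mp hH).1
  have hcov : ∀ H ∈ M, 1 ≤ ∑ T ∈ H.powerset, w T := by
    intro H hH
    have h1 := hg.2 H (hMF H hH)
    have h2 : ∑ T ∈ H.powerset, w T
        = ∑ S ∈ Finset.univ.filter (fun S => cl S ∈ H.powerset), g S := by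
      simp only [w, Finset.sum_filter]
      rw [Finset.sum_comm]
      apply Finset.sum_congr rfl
      intro S _
      rw [Finset.sum_ite_eq]
    rw [h2]
    refine le_trans h1 ?_
    apply Finset.sum_le_sum_of_subset_of_nonneg
    · intro S hS
      rw [Finset.mem_powerset] at hS
      simp only [Finset.mem_filter, Finset.mem_univ, true_and, Finset.mem_powerset]
      exact hcl_le S H hH hS
    · intro S _ _
      exact (hg.1 S).1
  have hchain : ∀ H ∈ M, ∀ T T', w T ≠ 0 → w T' ≠ 0 → T ⊆ H → T' ⊆ H → T ⊆ T' ∨ T' ⊆ T := by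
    intro H hH T T' hT hT' hTH hT'H
    obtain ⟨S, rfl⟩ := hwsupp T hT
    obtain ⟨S', rfl⟩ := hwsupp T' hT'
    obtain ⟨A, hA, hEq⟩ := hcl_eq S H hH hTH
    obtain ⟨A', hA', hEq'⟩ := hcl_eq S' H hH hT'H
    rw [hEq, hEq']
    exact hnest H A A' ((hM H).mp hH) ((hM A).mp hA) ((hM A').mp hA')
  obtain ⟨G, hGcov, hGcost⟩ := rounding M w (fun T => p ^ T.card) hw0
    (fun T => pow_nonneg hp0 _) hcov hchain
  refine ⟨G, ?_, ?_⟩
  · intro H hH
    obtain ⟨B, hBH, hB⟩ := exists_minimal_le_of_wellFoundedLT (fun S => S ∈ F) H hH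
    obtain ⟨T, hTG, hTB⟩ := hGcov B ((hM B).mpr hB)
    exact ⟨T, hTG, hTB.trans hBH⟩
  · unfold cost fracCost
    refine le_trans hGcost ?_
    have h3 : ∑ T, w T * p ^ T.card = ∑ S, g S * p ^ (cl S).card := by
      simp only [w, Finset.sum_filter, Finset.sum_mul]
      rw [Finset.sum_comm]
      apply Finset.sum_congr rfl
      intro S _
      simp only [ite_mul, zero_mul]
      rw [Finset.sum_ite_eq]
      simp
    rw [h3]
    apply Finset.sum_le_sum
    intro S _
    apply mul_le_mul_of_nonneg_left _ (hg.1 S).1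
    exact pow_le_pow_of_le_one hp0 hp1 (Finset.card_le_card (hcl_sub S))

end Vale.Agent.Results.P034.NestedIntersections
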